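import Vale.Agent.P030.H405.Poly

/-!
# P030: logarithms on the upper half plane and their continuation across the four real intervals

Intervals: `0 : (-∞,-1)`, `1 : (-1,0)`, `2 : (0,1)`, `3 : (1,∞)`.  `OmI i` is the union of the two
half planes and of the interval `i`.  `lg i, lm i, lp i` are the functions on `OmI i` which are
`log u, log (1-u), log (1+u)` on the upper half plane.
-/

open Set Complex
open scoped ComplexConjugate

noncomputable section

namespace Vale.Agent.P030.H225

open Vale.Agent.P030.H405 (l2)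

/-- the four real intervals -/
def Iv (i : Fin 4) : Set ℝ := ![Iio (-1), Ioo (-1) 0, Ioo 0 1, Ioi 1] i

/-- both half planes and the interval `i` -/
def OmI (i : Fin 4) : Set ℂ := {u : ℂ | u.im = 0 → u.re ∈ Iv i}

/-- the upper half plane -/
def Hp : Set ℂ := {u : ℂ | 0 < u.im}

theorem Hp_subset (i : Fin 4) : Hp ⊆ OmI i := fun _ hu h => absurd h (ne_of_gt hu)

theorem mem_OmI_of_ne {i : Fin 4} {u : ℂ} (h : u.im ≠ 0) : u ∈ OmI i := fun h0 => absurd h0 h

theorem conj_mem {i : Fin 4} {u : ℂ} (hu : u ∈ OmI i) : conj u ∈ OmI i := by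
  intro h
  have : u.im = 0 := by simpa using h
  simpa using hu this

theorem isOpen_Iv (i : Fin 4) : IsOpen (Iv i) := by
  fin_cases i
  · exact isOpen_Iio
  · exact isOpen_Ioo
  · exact isOpen_Ioo
  · exact isOpen_Ioi

theorem isOpen_OmI (i : Fin 4) : IsOpen (OmI i) := by
  have : OmI i = {u : ℂ | u.im ≠ 0} ∪ (re ⁻¹' Iv i) := by
    ext u
    simp only [OmI, mem_ofPred_eq, mem_union, mem_preimage]
    tauto
  rw [this]
  exact (isOpen_ne_fun Complex.continuous_im continuous_const).union
    ((isOpen_Iv i).preimage Complex.continuous_re)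

theorem convex_Iv (i : Fin 4) : Convex ℝ (Iv i) := by
  fin_cases i
  · exact convex_Iio _
  · exact convex_Ioo _ _
  · exact convex_Ioo _ _
  · exact convex_Ioi _

theorem star_OmI {i : Fin 4} {c : ℝ} (hc : c ∈ Iv i) : StarConvex ℝ (c : ℂ) (OmI i) := by
  intro u hu a b ha hb hab h0
  have him : (a • (c : ℂ) + b • u).im = b * u.im := by simp
  have hre : (a • (c : ℂ) + b • u).re = a * c + b * u.re := by simp
  rw [him] at h0
  rw [hre]
  rcases mul_eq_zero.1 h0 with hb0 | hu0
  · subst hb0
    have ha1 : a = 1 := by linarith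
    subst ha1
    simpa using hc
  · exact convex_Iv i hc (hu hu0) ha hb hab

/-! ### the three logarithms -/

/-- `log u`, continued across the interval `i` -/
def lg (i : Fin 4) (u : ℂ) : ℂ :=
  if i = 0 ∨ i = 1 then log (-u) + Real.pi * I else log u

/-- `log (1 - u)`, continued across the interval `i` -/
def lm (i : Fin 4) (u : ℂ) : ℂ :=
  if i = 3 then log (u - 1) - Real.pi * I else log (1 - u)

/-- `log (1 + u)`, continued across the interval `i` -/
def lp (i : Fin 4) (u : ℂ) : ℂ :=
  if i = 0 then log (-1 - u) + Real.pi * I else log (1 + u)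

theorem log_neg_up {u : ℂ} (hu : 0 < u.im) : log (-u) = log u - Real.pi * I := by
  rw [log, log, norm_neg, arg_neg_eq_arg_sub_pi_of_im_pos hu]
  push_cast
  ring

theorem log_neg_dn {u : ℂ} (hu : u.im < 0) : log (-u) = log u + Real.pi * I := by
  rw [log, log, norm_neg, arg_neg_eq_arg_add_pi_of_im_neg hu]
  push_cast
  ring

theorem lg_up (i : Fin 4) {u : ℂ} (hu : u ∈ Hp) : lg i u = log u := by
  unfold lg
  split_ifs
  · rw [log_neg_up hu]; ring
  · rfl

theorem lm_up (i : Fin 4) {u : ℂ} (hu : u ∈ Hp) : lm i u = log (1 - u) := by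
  unfold lm
  split_ifs
  · have hu' : 0 < u.im := hu
    have h : 0 < (u - 1).im := by simpa using hu'
    have := log_neg_up h
    rw [neg_sub] at this
    rw [this]
  · rfl

theorem lp_up (i : Fin 4) {u : ℂ} (hu : u ∈ Hp) : lp i u = log (1 + u) := by
  unfold lp
  split_ifs
  · have hu' : 0 < u.im := hu
    have h : 0 < (1 + u).im := by simpa using hu'
    have := log_neg_up h
    rw [show -1 - u = -(1 + u) by ring, this]
    ring
  · rfl

theorem slit_of {z : ℂ} (h : z.im = 0 → 0 < z.re) : z ∈ slitPlane := by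
  rw [mem_slitPlane_iff]
  by_cases h0 : z.im = 0
  · exact Or.inl (h h0)
  · exact Or.inr h0

theorem lg_slit {i : Fin 4} {u : ℂ} (hu : u ∈ OmI i) :
    (if i = 0 ∨ i = 1 then -u else u) ∈ slitPlane := by
  fin_cases i
  · refine slit_of fun h => ?_
    have h1 : u.re < -1 := hu (by simpa using h)
    show 0 < (-u).re
    simp only [neg_re]; linarith
  · refine slit_of fun h => ?_
    have h1 : -1 < u.re ∧ u.re < 0 := hu (by simpa using h)
    show 0 < (-u).re
    simp only [neg_re]; linarith [h1.2]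
  · refine slit_of fun h => ?_
    have h1 : 0 < u.re ∧ u.re < 1 := hu (by simpa using h)
    exact h1.1
  · refine slit_of fun h => ?_
    have h1 : 1 < u.re := hu (by simpa using h)
    show 0 < u.re
    linarith

theorem lm_slit {i : Fin 4} {u : ℂ} (hu : u ∈ OmI i) :
    (if i = 3 then u - 1 else 1 - u) ∈ slitPlane := by
  fin_cases i
  · refine slit_of fun h => ?_
    have h1 : u.re < -1 := hu (by simpa using h)
    show 0 < (1 - u).re
    simp only [sub_re, one_re]; linarith
  · refine slit_of fun h => ?_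
    have h1 : -1 < u.re ∧ u.re < 0 := hu (by simpa using h)
    show 0 < (1 - u).re
    simp only [sub_re, one_re]; linarith [h1.2]
  · refine slit_of fun h => ?_
    have h1 : 0 < u.re ∧ u.re < 1 := hu (by simpa using h)
    show 0 < (1 - u).re
    simp only [sub_re, one_re]; linarith [h1.2]
  · refine slit_of fun h => ?_
    have h1 : 1 < u.re := hu (by simpa using h)
    show 0 < (u - 1).re
    simp only [sub_re, one_re]; linarith

theorem lp_slit {i : Fin 4} {u : ℂ} (hu : u ∈ OmI i) :
    (if i = 0 then -1 - u else 1 + u) ∈ slitPlane := by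
  fin_cases i
  · refine slit_of fun h => ?_
    have h1 : u.re < -1 := hu (by simpa using h)
    show 0 < (-1 - u).re
    simp only [sub_re, neg_re, one_re]; linarith
  · refine slit_of fun h => ?_
    have h1 : -1 < u.re ∧ u.re < 0 := hu (by simpa using h)
    show 0 < (1 + u).re
    simp only [add_re, one_re]; linarith [h1.1]
  · refine slit_of fun h => ?_
    have h1 : 0 < u.re ∧ u.re < 1 := hu (by simpa using h)
    show 0 < (1 + u).re
    simp only [add_re, one_re]; linarith [h1.1]
  · refine slit_of fun h => ?_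
    have h1 : 1 < u.re := hu (by simpa using h)
    show 0 < (1 + u).re
    simp only [add_re, one_re]; linarith

theorem ne_zero_of_mem {i : Fin 4} {u : ℂ} (hu : u ∈ OmI i) : u ≠ 0 := by
  rintro rfl
  have := slitPlane_ne_zero (lg_slit hu)
  simp at this

theorem ne_one_of_mem {i : Fin 4} {u : ℂ} (hu : u ∈ OmI i) : 1 - u ≠ 0 := by
  intro h
  have := slitPlane_ne_zero (lm_slit hu)
  split_ifs at this
  · exact this (by linear_combination -h)
  · exact this h

theorem ne_neg_one_of_mem {i : Fin 4} {u : ℂ} (hu : u ∈ OmI i) : 1 + u ≠ 0 := by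
  intro h
  have := slitPlane_ne_zero (lp_slit hu)
  split_ifs at this
  · exact this (by linear_combination -h)
  · exact this h

theorem hasDerivAt_lg {i : Fin 4} {u : ℂ} (hu : u ∈ OmI i) : HasDerivAt (lg i) (1 / u) u := by
  have hs := lg_slit hu
  have h0 := ne_zero_of_mem hu
  by_cases h : i = 0 ∨ i = 1
  · rw [if_pos h] at hs
    have h1 : HasDerivAt (fun u : ℂ => log (-u) + Real.pi * I) (-1 / (-u)) u :=
      ((hasDerivAt_neg u).clog hs).add_const _
    have h2 : lg i = fun u : ℂ => log (-u) + Real.pi * I := by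
      funext u; simp [lg, h]
    rw [h2]
    refine h1.congr_deriv ?_
    field_simp
  · rw [if_neg h] at hs
    have h1 : HasDerivAt (fun u : ℂ => log u) (1 / u) u := (hasDerivAt_id u).clog hs
    have h2 : lg i = fun u : ℂ => log u := by
      funext u; simp [lg, h]
    rw [h2]
    exact h1

theorem hasDerivAt_lm {i : Fin 4} {u : ℂ} (hu : u ∈ OmI i) :
    HasDerivAt (lm i) (-1 / (1 - u)) u := by
  have hs := lm_slit hu
  have h0 := ne_one_of_mem hu
  by_cases h : i = 3
  · rw [if_pos h] at hs
    have h1 : HasDerivAt (fun u : ℂ => log (u - 1) - Real.pi * I) (1 / (u - 1)) u :=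
      (((hasDerivAt_id u).sub_const 1).clog hs).sub_const _
    have h2 : lm i = fun u : ℂ => log (u - 1) - Real.pi * I := by
      funext u; simp [lm, h]
    rw [h2]
    refine h1.congr_deriv ?_
    have : u - 1 ≠ 0 := slitPlane_ne_zero hs
    field_simp
    ring
  · rw [if_neg h] at hs
    have h1 : HasDerivAt (fun u : ℂ => log (1 - u)) (-1 / (1 - u)) u :=
      ((hasDerivAt_id u).const_sub 1).clog hs
    have h2 : lm i = fun u : ℂ => log (1 - u) := by
      funext u; simp [lm, h]
    rw [h2]
    exact h1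

theorem hasDerivAt_lp {i : Fin 4} {u : ℂ} (hu : u ∈ OmI i) :
    HasDerivAt (lp i) (1 / (1 + u)) u := by
  have hs := lp_slit hu
  have h0 := ne_neg_one_of_mem hu
  by_cases h : i = 0
  · rw [if_pos h] at hs
    have h1 : HasDerivAt (fun u : ℂ => log (-1 - u) + Real.pi * I) (-1 / (-1 - u)) u :=
      (((hasDerivAt_id u).const_sub (-1)).clog hs).add_const _
    have h2 : lp i = fun u : ℂ => log (-1 - u) + Real.pi * I := by
      funext u; simp [lp, h]
    rw [h2]
    refine h1.congr_deriv ?_
    have : -1 - u ≠ 0 := slitPlane_ne_zero hs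
    field_simp
    ring
  · rw [if_neg h] at hs
    have h1 : HasDerivAt (fun u : ℂ => log (1 + u)) (1 / (1 + u)) u :=
      ((hasDerivAt_id u).const_add 1).clog hs
    have h2 : lp i = fun u : ℂ => log (1 + u) := by
      funext u; simp [lp, h]
    rw [h2]
    exact h1

theorem conj_log_slit {z : ℂ} (h : z ∈ slitPlane) : conj (log (conj z)) = log z := by
  have h1 : log (conj z) = conj (log z) := log_conj z (mem_slitPlane_iff_arg.1 h).1
  rw [h1, conj_conj]

/-- the constants `lg u - conj (lg (conj u))` -/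
def Jg (i : Fin 4) : ℂ := if i = 0 ∨ i = 1 then 2 * Real.pi * I else 0
/-- the constants `lm u - conj (lm (conj u))` -/
def Jm (i : Fin 4) : ℂ := if i = 3 then -(2 * Real.pi * I) else 0
/-- the constants `lp u - conj (lp (conj u))` -/
def Jp (i : Fin 4) : ℂ := if i = 0 then 2 * Real.pi * I else 0

theorem lg_star {i : Fin 4} {u : ℂ} (hu : u ∈ OmI i) :
    lg i u = conj (lg i (conj u)) + Jg i := by
  have hs := lg_slit hu
  by_cases h : i = 0 ∨ i = 1
  · rw [if_pos h] at hs
    have h1 := conj_log_slit hs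
    simp only [lg, Jg, if_pos h, map_add, map_mul, conj_ofReal, conj_I]
    rw [map_neg] at h1
    rw [h1]
    ring
  · rw [if_neg h] at hs
    have h1 := conj_log_slit hs
    simp only [lg, Jg, if_neg h]
    rw [h1]
    ring

theorem lm_star {i : Fin 4} {u : ℂ} (hu : u ∈ OmI i) :
    lm i u = conj (lm i (conj u)) + Jm i := by
  have hs := lm_slit hu
  by_cases h : i = 3
  · rw [if_pos h] at hs
    have h1 := conj_log_slit hs
    simp only [lm, Jm, if_pos h, map_sub, map_mul, conj_ofReal, conj_I]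
    rw [map_sub, map_one] at h1
    rw [h1]
    ring
  · rw [if_neg h] at hs
    have h1 := conj_log_slit hs
    simp only [lm, Jm, if_neg h]
    rw [map_sub, map_one] at h1
    rw [h1]
    ring

theorem lp_star {i : Fin 4} {u : ℂ} (hu : u ∈ OmI i) :
    lp i u = conj (lp i (conj u)) + Jp i := by
  have hs := lp_slit hu
  by_cases h : i = 0
  · rw [if_pos h] at hs
    have h1 := conj_log_slit hs
    simp only [lp, Jp, if_pos h, map_add, map_mul, conj_ofReal, conj_I]
    rw [map_sub, map_neg, map_one] at h1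
    rw [h1]
    ring
  · rw [if_neg h] at hs
    have h1 := conj_log_slit hs
    simp only [lp, Jp, if_neg h]
    rw [map_add, map_one] at h1
    rw [h1]
    ring

/-! ### the flat vectors without dilogarithms -/

/-- unit vectors: `Li2`, `f6`, `f7` -/
def eD : Fin 8 → ℂ := ![0, 0, 0, 1, 0, 0, 0, 0]
def e6 : Fin 8 → ℂ := ![0, 0, 0, 0, 1, 0, 0, 0]
def e7 : Fin 8 → ℂ := ![0, 0, 0, 0, 0, 1, 0, 0]

/-- `a`: at `c0` the group `zl` -/
def flA (i : Fin 4) (u : ℂ) : Fin 8 → ℂ := ![0, 1, 0, 0, lp i u - lm i u / 2, -lm i u / 2, 0, 0]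

/-- `b`: at `c1` the group `wl` -/
def flB (i : Fin 4) (u : ℂ) : Fin 8 → ℂ :=
  ![0, 1, -1, -(lg i u - Real.pi * I), -(lm i u - l2) / 2, (lm i u - l2) / 2, 0, 0]

/-- `E = a - b` -/
def flE (i : Fin 4) (u : ℂ) : Fin 8 → ℂ :=
  ![0, 0, 1, lg i u - Real.pi * I, lp i u - l2 / 2, l2 / 2 - lm i u, 0, 0]

/-- the part without elliptic integrals of `E - pi I (e7 - eD) - (pi/8) k_2` -/
def flY (i : Fin 4) (u : ℂ) : Fin 8 → ℂ :=
  ![0, 0, 1, lg i u, lp i u - l2 / 2, l2 / 2 - lm i u - Real.pi * I, 0, 0]

/-- componentwise conjugate -/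
def cj (v : Fin 8 → ℂ) : Fin 8 → ℂ := fun j => conj (v j)

theorem flE_eq (i : Fin 4) (u : ℂ) : flE i u = flA i u - flB i u := by
  funext j
  fin_cases j <;> simp [flE, flA, flB] <;> ring

theorem flY_eq (i : Fin 4) (u : ℂ) : flY i u = flE i u - (Real.pi * I) • (e7 - eD) := by
  funext j
  fin_cases j <;> simp [flE, flY, e7, eD]

theorem conj_l2 : conj l2 = l2 := conj_ofReal _
theorem conj_two : conj (2 : ℂ) = 2 := map_ofNat _ 2

/-- the reflection constants of `a` -/
def JA (i : Fin 4) : Fin 8 → ℂ := (Jp i - Jm i / 2) • e6 - (Jm i / 2) • e7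
/-- the reflection constants of `b` -/
def JB (i : Fin 4) : Fin 8 → ℂ :=
  (2 * Real.pi * I - Jg i) • eD - (Jm i / 2) • e6 + (Jm i / 2) • e7
/-- the reflection constants of `flE` -/
def JE (i : Fin 4) : Fin 8 → ℂ := (Jg i - 2 * Real.pi * I) • eD + Jp i • e6 - Jm i • e7
/-- the reflection constants of `flY` -/
def JY (i : Fin 4) : Fin 8 → ℂ := Jg i • eD + Jp i • e6 - (Jm i + 2 * Real.pi * I) • e7

theorem flA_star {i : Fin 4} {u : ℂ} (hu : u ∈ OmI i) :
    flA i u = cj (flA i (conj u)) + JA i := by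
  have h1 := lm_star hu
  have h2 := lp_star hu
  funext j
  fin_cases j <;> simp [flA, cj, JA, e6, e7, conj_two]
  · linear_combination h2 - h1 / 2
  · linear_combination -h1 / 2

theorem flB_star {i : Fin 4} {u : ℂ} (hu : u ∈ OmI i) :
    flB i u = cj (flB i (conj u)) + JB i := by
  have h1 := lm_star hu
  have h2 := lg_star hu
  funext j
  fin_cases j <;> simp [flB, cj, JB, e6, e7, eD, conj_l2, conj_two]
  · linear_combination -h2
  · linear_combination -h1 / 2
  · linear_combination h1 / 2

theorem flE_star {i : Fin 4} {u : ℂ} (hu : u ∈ OmI i) :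
    flE i u = cj (flE i (conj u)) + JE i := by
  have h1 := lm_star hu
  have h2 := lg_star hu
  have h3 := lp_star hu
  funext j
  fin_cases j <;> simp [flE, cj, JE, e6, e7, eD, conj_l2, conj_two]
  · linear_combination h2
  · linear_combination h3
  · linear_combination -h1

theorem flY_star {i : Fin 4} {u : ℂ} (hu : u ∈ OmI i) :
    flY i u = cj (flY i (conj u)) + JY i := by
  have h1 := lm_star hu
  have h2 := lg_star hu
  have h3 := lp_star hu
  funext j
  fin_cases j <;> simp [flY, cj, JY, e6, e7, eD, conj_l2, conj_two]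
  · linear_combination h2
  · linear_combination h3
  · linear_combination -h1

/-! the sixteen constants -/

theorem JA_0 : JA 0 = (2 * Real.pi * I) • e6 := by
  funext j; simp [JA, Jp, Jm]
theorem JA_1 : JA 1 = 0 := by
  funext j; simp [JA, Jp, Jm]
theorem JA_2 : JA 2 = 0 := by
  funext j; simp [JA, Jp, Jm]
theorem JA_3 : JA 3 = (Real.pi * I) • (e6 + e7) := by
  funext j; simp [JA, Jp, Jm]; ring

theorem JB_0 : JB 0 = 0 := by
  funext j; simp [JB, Jg, Jm]
theorem JB_1 : JB 1 = 0 := by
  funext j; simp [JB, Jg, Jm]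
theorem JB_2 : JB 2 = (2 * Real.pi * I) • eD := by
  funext j; simp [JB, Jg, Jm]
theorem JB_3 : JB 3 = (2 * Real.pi * I) • eD + (Real.pi * I) • (e6 - e7) := by
  funext j; simp [JB, Jg, Jm]; ring

theorem JE_0 : JE 0 = (2 * Real.pi * I) • e6 := by
  funext j; simp [JE, Jg, Jm, Jp]
theorem JE_1 : JE 1 = 0 := by
  funext j; simp [JE, Jg, Jm, Jp]
theorem JE_2 : JE 2 = -((2 * Real.pi * I) • eD) := by
  funext j; simp [JE, Jg, Jm, Jp]
theorem JE_3 : JE 3 = (2 * Real.pi * I) • (e7 - eD) := by
  funext j; simp [JE, Jg, Jm, Jp]; ring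

theorem JY_0 : JY 0 = (2 * Real.pi * I) • (eD + e6 - e7) := by
  funext j; simp [JY, Jg, Jm, Jp]; ring
theorem JY_1 : JY 1 = (2 * Real.pi * I) • (eD - e7) := by
  funext j; simp [JY, Jg, Jm, Jp]; ring
theorem JY_2 : JY 2 = -((2 * Real.pi * I) • e7) := by
  funext j; simp [JY, Jg, Jm, Jp]
theorem JY_3 : JY 3 = 0 := by
  funext j; simp [JY, Jg, Jm, Jp]

end Vale.Agent.P030.H225
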