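import Mathlib

/-!
# Primitives on star shaped open sets
-/

open Set Filter Topology Complex MeasureTheory intervalIntegral

namespace Vale.Agent.P030.H225

/-- a holomorphic function on an open set star shaped about `0` has a primitive -/
theorem exists_primitive_star {Om : Set ℂ} (hO : IsOpen Om) (hs : StarConvex ℝ (0 : ℂ) Om)
    {f : ℂ → ℂ} (hf : DifferentiableOn ℂ f Om) :
    ∃ F : ℂ → ℂ, F 0 = 0 ∧ ∀ u ∈ Om, HasDerivAt F (f u) u := by
  refine ⟨fun u => ∫ t in (0 : ℝ)..1, u * f (t * u), by simp, fun u0 hu0 => ?_⟩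
  have hd : DifferentiableOn ℂ (deriv f) Om := hf.deriv hO
  have hmem : ∀ u ∈ Om, ∀ t : ℝ, t ∈ Icc (0 : ℝ) 1 → (t : ℂ) * u ∈ Om := by
    intro u hu t ht
    have := hs hu (a := 1 - t) (b := t) (by linarith [ht.2]) ht.1 (by ring)
    simpa using this
  obtain ⟨ε, hε, hball⟩ : ∃ ε > 0, Metric.closedBall u0 ε ⊆ Om :=
    Metric.nhds_basis_closedBall.mem_iff.1 (hO.mem_nhds hu0)
  set K : Set ℂ := (fun p : ℝ × ℂ => (p.1 : ℂ) * p.2) '' (Icc (0 : ℝ) 1 ×ˢ Metric.closedBall u0 ε)
    with hK
  have hKc : IsCompact K := by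
    refine (isCompact_Icc.prod (isCompact_closedBall u0 ε)).image ?_
    fun_prop
  have hKO : K ⊆ Om := by
    rintro _ ⟨⟨t, u⟩, ⟨ht, hu⟩, rfl⟩
    exact hmem u (hball hu) t ht
  obtain ⟨C1, hC1⟩ := hKc.exists_bound_of_continuousOn (hf.continuousOn.mono hKO)
  obtain ⟨C2, hC2⟩ := hKc.exists_bound_of_continuousOn (hd.continuousOn.mono hKO)
  have hinK : ∀ t ∈ Icc (0 : ℝ) 1, ∀ u ∈ Metric.closedBall u0 ε, (t : ℂ) * u ∈ K :=
    fun t ht u hu => ⟨(t, u), ⟨ht, hu⟩, rfl⟩
  have hcontf : ∀ u ∈ Om, ContinuousOn (fun t : ℝ => f (t * u)) (Icc 0 1) := by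
    intro u hu
    refine hf.continuousOn.comp (by fun_prop) fun t ht => hmem u hu t ht
  have hcontd : ∀ u ∈ Om, ContinuousOn (fun t : ℝ => deriv f (t * u)) (Icc 0 1) := by
    intro u hu
    refine hd.continuousOn.comp (by fun_prop) fun t ht => hmem u hu t ht
  have hder : ∀ t ∈ Icc (0 : ℝ) 1, ∀ u ∈ Om,
      HasDerivAt (fun u => u * f (t * u)) (f (t * u) + u * (t * deriv f (t * u))) u := by
    intro t ht u hu
    have h1 : HasDerivAt (fun u : ℂ => (t : ℂ) * u) (t : ℂ) u := by
      simpa using (hasDerivAt_id u).const_mul (t : ℂ)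
    have h2 : HasDerivAt f (deriv f (t * u)) (t * u) :=
      (hf.differentiableAt (hO.mem_nhds (hmem u hu t ht))).hasDerivAt
    have h3 := (hasDerivAt_id u).mul (h2.comp u h1)
    refine h3.congr_deriv ?_
    simp only [id, Function.comp]
    ring
  have hIoc : uIoc (0 : ℝ) 1 = Ioc 0 1 := uIoc_of_le zero_le_one
  have hmain := intervalIntegral.hasDerivAt_integral_of_dominated_loc_of_deriv_le
    (F := fun u (t : ℝ) => u * f (t * u)) (a := 0) (b := 1) (μ := volume)
    (F' := fun u (t : ℝ) => f (t * u) + u * (t * deriv f (t * u))) (x₀ := u0)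
    (s := Metric.closedBall u0 ε)
    (bound := fun _ => C1 + (‖u0‖ + ε) * C2)
    (Metric.closedBall_mem_nhds u0 hε) ?_ ?_ ?_ ?_ ?_ ?_
  · have h := hmain.2
    have hval : (∫ t in (0 : ℝ)..1, (f (t * u0) + u0 * (t * deriv f (t * u0)))) = f u0 := by
      have hdt : ∀ t ∈ uIcc (0 : ℝ) 1, HasDerivAt (fun t : ℝ => (t : ℂ) * f (t * u0))
          (f (t * u0) + u0 * (t * deriv f (t * u0))) t := by
        intro t ht
        rw [uIcc_of_le zero_le_one] at ht
        have h1 : HasDerivAt (fun t : ℝ => (t : ℂ)) 1 t := Complex.ofRealCLM.hasDerivAt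
        have h2 : HasDerivAt (fun t : ℝ => (t : ℂ) * u0) u0 t := by
          simpa using h1.mul_const u0
        have h3 : HasDerivAt f (deriv f (t * u0)) (t * u0) :=
          (hf.differentiableAt (hO.mem_nhds (hmem u0 hu0 t ht))).hasDerivAt
        have h4 := h1.mul (h3.comp t h2)
        refine h4.congr_deriv ?_
        simp only [Function.comp]
        ring
      have hint : IntervalIntegrable (fun t : ℝ => f (t * u0) + u0 * (t * deriv f (t * u0)))
          volume 0 1 := by
        refine ContinuousOn.intervalIntegrable ?_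
        rw [uIcc_of_le zero_le_one]
        refine (hcontf u0 hu0).add (continuousOn_const.mul ?_)
        exact (Complex.continuous_ofReal.continuousOn).mul (hcontd u0 hu0)
      rw [integral_eq_sub_of_hasDerivAt hdt hint]
      simp
    rw [hval] at h
    exact h
  · filter_upwards [hO.mem_nhds hu0] with u hu
    rw [hIoc]
    refine (ContinuousOn.aestronglyMeasurable ?_ measurableSet_Icc).mono_set Ioc_subset_Icc_self
    exact continuousOn_const.mul (hcontf u hu)
  · refine ContinuousOn.intervalIntegrable ?_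
    rw [uIcc_of_le zero_le_one]
    exact continuousOn_const.mul (hcontf u0 hu0)
  · rw [hIoc]
    refine (ContinuousOn.aestronglyMeasurable ?_ measurableSet_Icc).mono_set Ioc_subset_Icc_self
    refine (hcontf u0 hu0).add (continuousOn_const.mul ?_)
    exact (Complex.continuous_ofReal.continuousOn).mul (hcontd u0 hu0)
  · refine Eventually.of_forall fun t ht u hu => ?_
    rw [hIoc] at ht
    have ht' : t ∈ Icc (0 : ℝ) 1 := Ioc_subset_Icc_self ht
    have hb1 := hC1 _ (hinK t ht' u hu)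
    have hb2 := hC2 _ (hinK t ht' u hu)
    have hun : ‖u‖ ≤ ‖u0‖ + ε := by
      have := Metric.mem_closedBall.1 hu
      rw [dist_eq_norm] at this
      calc ‖u‖ = ‖u0 + (u - u0)‖ := by ring_nf
        _ ≤ ‖u0‖ + ‖u - u0‖ := norm_add_le _ _
        _ ≤ _ := by linarith
    refine (norm_add_le _ _).trans (add_le_add hb1 ?_)
    rw [norm_mul]
    refine mul_le_mul hun ?_ (norm_nonneg _) (by positivity)
    rw [norm_mul]
    have : ‖(t : ℂ)‖ ≤ 1 := by
      rw [Complex.norm_real, Real.norm_eq_abs, abs_of_nonneg ht'.1]; exact ht'.2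
    calc ‖(t : ℂ)‖ * ‖deriv f (t * u)‖ ≤ 1 * ‖deriv f (t * u)‖ := by gcongr
      _ ≤ C2 := by rw [one_mul]; exact hb2
  · exact intervalIntegrable_const
  · refine Eventually.of_forall fun t ht u hu => ?_
    rw [hIoc] at ht
    exact hder t (Ioc_subset_Icc_self ht) u (hball hu)

/-- two functions with the same derivative on an open set star shaped about `c`, equal at one
point, are equal -/
theorem eq_of_deriv_eq_star {Om : Set ℂ} (hO : IsOpen Om) {c : ℂ} (hs : StarConvex ℝ c Om)
    (hc : c ∈ Om) {F G : ℂ → ℂ} {f : ℂ → ℂ} (hF : ∀ u ∈ Om, HasDerivAt F (f u) u)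
    (hG : ∀ u ∈ Om, HasDerivAt G (f u) u) {z0 : ℂ} (hz0 : z0 ∈ Om) (h0 : F z0 = G z0) :
    ∀ u ∈ Om, F u = G u := by
  have hpre : IsPreconnected Om := (hs.isPathConnected hc).isConnected.isPreconnected
  have := hO.eqOn_of_deriv_eq hpre (f := F) (g := G)
    (fun u hu => (hF u hu).differentiableAt.differentiableWithinAt)
    (fun u hu => (hG u hu).differentiableAt.differentiableWithinAt)
    (fun u hu => by rw [(hF u hu).deriv, (hG u hu).deriv]) hz0 h0
  exact this

end Vale.Agent.P030.H225
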