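import Vale.Agent.P030.H405.Poly
import Vale.Agent.P030.H225.Star
import Vale.Agent.P030.H225.Refl

/-!
# P030: the main row `1, l, L, Li2, f6, f7` on the upper half plane, its continuation across the
four real intervals and its reflections
-/

open Set Complex
open scoped ComplexConjugate

noncomputable section

namespace Vale.Agent.P030.H225

open Vale.Agent.P030.H405 (l2 Om Lf Li Jf f6 f7 wm prim)

/-! ### inversion -/

/-- the plane without `[0, ∞)` -/
def On : Set ℂ := {u : ℂ | -u ∈ slitPlane}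

theorem isOpen_On : IsOpen On := isOpen_slitPlane.preimage (by fun_prop)

theorem neg_one_mem_On : (-1 : ℂ) ∈ On := by
  show -(-1 : ℂ) ∈ slitPlane
  simp

theorem star_On : StarConvex ℝ (-1 : ℂ) On := by
  intro u hu a b ha hb hab
  have hs : StarConvex ℝ (1 : ℂ) slitPlane := starConvex_one_slitPlane
  have h := hs (show -u ∈ slitPlane from hu) ha hb hab
  show -(a • (-1 : ℂ) + b • u) ∈ slitPlane
  convert h using 1
  simp only [smul_neg, neg_add_rev, neg_neg]
  ring

theorem On_ne {u : ℂ} (hu : u ∈ On) : u ≠ 0 := by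
  rintro rfl
  exact slitPlane_ne_zero hu (by simp)

theorem On_subset {u : ℂ} (hu : u ∈ On) : u ∈ Om := by
  have h : 0 < (-u).re ∨ (-u).im ≠ 0 := mem_slitPlane_iff.1 hu
  show 1 - u ∈ slitPlane
  rw [mem_slitPlane_iff]
  rcases h with h | h
  · left
    simp only [neg_re] at h
    simp only [sub_re, one_re]
    linarith
  · right
    simp only [neg_im, ne_eq, neg_eq_zero] at h
    simpa using h

theorem inv_mem_slit {z : ℂ} (h : z ∈ slitPlane) : z⁻¹ ∈ slitPlane := by
  have h1 := mem_slitPlane_iff_arg.1 h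
  rw [mem_slitPlane_iff_arg]
  refine ⟨?_, inv_ne_zero h1.2⟩
  rw [arg_inv, if_neg h1.1]
  intro h2
  have := neg_pi_lt_arg z
  linarith

theorem inv_mem_On {u : ℂ} (hu : u ∈ On) : 1 / u ∈ On := by
  have h : -u ∈ slitPlane := hu
  show -(1 / u) ∈ slitPlane
  have h1 : (-u)⁻¹ ∈ slitPlane := inv_mem_slit h
  rw [inv_neg] at h1
  rwa [one_div]

theorem hasDerivAt_inv' {u : ℂ} (hu : u ≠ 0) : HasDerivAt (fun z : ℂ => 1 / z) (-1 / u ^ 2) u := by
  have := hasDerivAt_inv hu
  simp only [one_div]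
  refine this.congr_deriv ?_
  field_simp

theorem Lf_inv {u : ℂ} (hu : u ∈ On) : Lf (1 / u) = Lf u + log (-u) := by
  refine eq_of_deriv_eq_star isOpen_On star_On neg_one_mem_On (F := fun u => Lf (1 / u))
    (G := fun u => Lf u + log (-u)) (f := fun u => 1 / (1 - u) + 1 / u) ?_ ?_ neg_one_mem_On ?_ u hu
  · intro u hu
    have h0 := On_ne hu
    have h1 := H405.one_sub_ne_zero (On_subset hu)
    have h2 := H405.one_sub_ne_zero (On_subset (inv_mem_On hu))
    have h3 : u - 1 ≠ 0 := by
      intro h; exact h1 (by linear_combination -h)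
    have hd := (H405.hasDerivAt_Lf (On_subset (inv_mem_On hu))).comp u (hasDerivAt_inv' h0)
    refine hd.congr_deriv ?_
    have h4 : 1 - 1 / u = (u - 1) / u := by field_simp
    rw [h4]
    field_simp
    ring
  · intro u hu
    have h0 := On_ne hu
    have hl : HasDerivAt (fun u : ℂ => log (-u)) (-1 / (-u)) u := (hasDerivAt_neg u).clog hu
    have hd := (H405.hasDerivAt_Lf (On_subset hu)).add hl
    refine hd.congr_deriv ?_
    field_simp
  · norm_num

theorem Li_inv {u : ℂ} (hu : u ∈ On) : Li u + Li (1 / u) + log (-u) ^ 2 / 2 = 2 * Li (-1) := by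
  refine eq_of_deriv_eq_star isOpen_On star_On neg_one_mem_On
    (F := fun u => Li u + Li (1 / u) + log (-u) ^ 2 / 2)
    (G := fun _ => 2 * Li (-1)) (f := fun _ => 0) ?_ ?_ neg_one_mem_On ?_ u hu
  · intro u hu
    have h0 := On_ne hu
    have h0' := On_ne (inv_mem_On hu)
    have hl : HasDerivAt (fun u : ℂ => log (-u)) (-1 / (-u)) u := (hasDerivAt_neg u).clog hu
    have hd := ((H405.hasDerivAt_Li' (On_subset hu) h0).add
      ((H405.hasDerivAt_Li' (On_subset (inv_mem_On hu)) h0').comp u (hasDerivAt_inv' h0))).add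
      ((hl.pow 2).div_const 2)
    refine hd.congr_deriv ?_
    rw [Lf_inv hu]
    field_simp
    simp
    ring
  · intro u _
    exact hasDerivAt_const _ _
  · simp
    ring

/-! ### continuation of `Li2` and `f6` -/

theorem up_mem_On {u : ℂ} (hu : u ∈ Hp) : u ∈ On := by
  have h : 0 < u.im := hu
  show -u ∈ slitPlane
  rw [mem_slitPlane_iff]
  right
  simp only [neg_im]
  linarith

theorem up_mem_Om {u : ℂ} (hu : u ∈ Hp) : u ∈ Om := On_subset (up_mem_On hu)

theorem mem_Om_of {i : Fin 4} (hi : i ≠ 3) {u : ℂ} (hu : u ∈ OmI i) : u ∈ Om := by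
  have := lm_slit hu
  rw [if_neg hi] at this
  exact this

/-- `Li2`, continued across the interval `i` -/
def LiC (i : Fin 4) (u : ℂ) : ℂ :=
  if i = 3 then 2 * Li (-1) - (Real.pi * I - lg 3 u) ^ 2 / 2 - Li (1 / u) else Li u

/-- `f6`, continued across the interval `i` -/
def f6C (i : Fin 4) (u : ℂ) : ℂ :=
  if i = 3 then -Li (-1) - lm 3 u * (lm 3 u - l2) / 2 + (lp 3 u - lm 3 u) ^ 2 / 2
    + Li ((u - 1) / (u + 1)) else f6 u

theorem LiC_up (i : Fin 4) {u : ℂ} (hu : u ∈ Hp) : LiC i u = Li u := by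
  unfold LiC
  split_ifs with h
  · have h1 := Li_inv (up_mem_On hu)
    rw [lg_up 3 hu]
    rw [log_neg_up hu] at h1
    linear_combination -h1
  · rfl

theorem log_two_div {u : ℂ} (hu : 1 + u ∈ slitPlane) : log (2 / (1 + u)) = l2 - log (1 + u) := by
  have h1 : (1 + u)⁻¹ ≠ 0 := inv_ne_zero (slitPlane_ne_zero hu)
  have h2 : log ((2 : ℝ) * (1 + u)⁻¹) = Real.log 2 + log (1 + u)⁻¹ :=
    log_ofReal_mul (by norm_num) h1
  have h3 : log (1 + u)⁻¹ = -log (1 + u) := log_inv _ (mem_slitPlane_iff_arg.1 hu).1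
  rw [h3] at h2
  have h4 : ((2 : ℝ) : ℂ) * (1 + u)⁻¹ = 2 / (1 + u) := by push_cast; rw [div_eq_mul_inv]
  rw [h4] at h2
  rw [h2]
  unfold l2
  ring

theorem Lf_tt {u : ℂ} (hu : 1 + u ∈ slitPlane) : Lf ((u - 1) / (u + 1)) = log (1 + u) - l2 := by
  have h0 : 1 + u ≠ 0 := slitPlane_ne_zero hu
  have h0' : u + 1 ≠ 0 := by rwa [add_comm]
  unfold Lf
  have : 1 - (u - 1) / (u + 1) = 2 / (1 + u) := by
    field_simp
    ring
  rw [this, log_two_div hu]
  ring

theorem wm_mem_On {u : ℂ} (hu : u ∈ Hp) : wm u ∈ On := by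
  have h : 0 < u.im := hu
  have hne : u - 1 ≠ 0 := by
    intro h1
    have : (u - 1).im = 0 := by rw [h1]; rfl
    simp only [sub_im, one_im, sub_zero] at this
    linarith
  show -wm u ∈ slitPlane
  rw [mem_slitPlane_iff]
  right
  have h1 : wm u = 1 + 2 * (u - 1)⁻¹ := by
    unfold wm
    field_simp
    ring
  rw [h1]
  have h2 : (-(1 + 2 * (u - 1)⁻¹)).im = 2 * (u.im / normSq (u - 1)) := by
    simp [inv_im]
    ring
  rw [h2]
  have h3 : 0 < normSq (u - 1) := normSq_pos.2 hne
  positivity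

theorem log_neg_wm {u : ℂ} (hu : u ∈ Hp) : log (-wm u) = lp 3 u - lm 3 u := by
  have h1 := Lf_inv (wm_mem_On hu)
  have h2 : u ≠ 1 := by
    rintro rfl
    exact absurd (show (0 : ℝ) < (1 : ℂ).im from hu) (by simp)
  have h3 : 1 + u ∈ slitPlane := by
    have := lp_slit (Hp_subset 3 hu)
    simpa using this
  have h4 : 1 / wm u = (u - 1) / (u + 1) := by
    unfold wm
    rw [one_div_div]
  rw [h4, Lf_tt h3, H405.Lf_wm (up_mem_Om hu)] at h1
  rw [lp_up 3 hu, lm_up 3 hu]
  have h5 : Lf u = -log (1 - u) := rfl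
  rw [h5] at h1
  linear_combination -h1

theorem f6C_up (i : Fin 4) {u : ℂ} (hu : u ∈ Hp) : f6C i u = f6 u := by
  unfold f6C
  split_ifs with h
  · have h1 := H405.f6_add_f7 (up_mem_Om hu)
    have h2 := Li_inv (wm_mem_On hu)
    have h4 : 1 / wm u = (u - 1) / (u + 1) := by
      unfold wm
      rw [one_div_div]
    rw [h4, log_neg_wm hu] at h2
    have h3 : f7 u = lm 3 u * (lm 3 u - l2) / 2 := by
      rw [lm_up 3 hu]
      unfold f7 Lf
      ring
    rw [h3] at h1
    linear_combination -h1 + h2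
  · rfl

theorem f7_up (i : Fin 4) {u : ℂ} (hu : u ∈ Hp) : lm i u * (lm i u - l2) / 2 = f7 u := by
  rw [lm_up i hu]
  unfold f7 Lf
  ring

/-! derivatives -/

theorem two_mem : (2 : ℝ) ∈ Iv 3 := by
  show (1 : ℝ) < 2
  norm_num

theorem div_up_mem_Om {u : ℂ} (hu : u ∈ OmI 3) : 1 / u ∈ Om := by
  have h0 := ne_zero_of_mem hu
  show 1 - 1 / u ∈ slitPlane
  apply slit_of
  intro him
  have h1 : (1 / u).im = -u.im / normSq u := by simp [inv_im]
  have h2 : (1 - 1 / u).im = u.im / normSq u := by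
    rw [sub_im, one_im, h1]; ring
  have h3 : 0 < normSq u := normSq_pos.2 h0
  rw [h2, div_eq_zero_iff] at him
  have h4 : u.im = 0 := by
    rcases him with h | h
    · exact h
    · exact absurd h h3.ne'
  have h5 : 1 < u.re := hu h4
  have h6 : (1 - 1 / u).re = 1 - u.re / normSq u := by simp [inv_re]
  rw [h6]
  have h7 : normSq u = u.re * u.re := by rw [normSq_apply, h4]; ring
  rw [h7]
  have h8 : u.re / (u.re * u.re) = 1 / u.re := by
    field_simp
  rw [h8]
  have : 1 / u.re < 1 := by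
    rw [div_lt_one (by linarith)]
    exact h5
  linarith

theorem tt_mem_Om {u : ℂ} (hu : u ∈ OmI 3) : (u - 1) / (u + 1) ∈ Om := by
  have hs : 1 + u ∈ slitPlane := by simpa using lp_slit hu
  have h0 : 1 + u ≠ 0 := slitPlane_ne_zero hs
  have h0' : u + 1 ≠ 0 := by rwa [add_comm]
  show 1 - (u - 1) / (u + 1) ∈ slitPlane
  have h1 : 1 - (u - 1) / (u + 1) = ((2 : ℝ) : ℂ) * (1 + u)⁻¹ := by
    push_cast
    field_simp
    ring
  rw [h1]
  have h2 := inv_mem_slit hs
  rw [mem_slitPlane_iff] at h2 ⊢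
  rw [re_ofReal_mul, im_ofReal_mul]
  rcases h2 with h2 | h2
  · left; linarith
  · right; exact mul_ne_zero (by norm_num) h2

theorem Lf_inv3 {u : ℂ} (hu : u ∈ OmI 3) : Lf (1 / u) = lg 3 u - lm 3 u - Real.pi * I := by
  refine eq_of_deriv_eq_star (isOpen_OmI 3) (star_OmI two_mem) (F := fun u => Lf (1 / u))
    (G := fun u => lg 3 u - lm 3 u - Real.pi * I) (f := fun u => 1 / u + 1 / (1 - u)) ?_ ?_
    (z0 := 2) ?_ ?_ ?_ u hu
  · intro h
    exact two_mem
  · intro u hu
    have h0 := ne_zero_of_mem hu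
    have h1 := ne_one_of_mem hu
    have hd := (H405.hasDerivAt_Lf (div_up_mem_Om hu)).comp u (hasDerivAt_inv' h0)
    refine hd.congr_deriv ?_
    have h3 : u - 1 ≠ 0 := by
      intro h; exact h1 (by linear_combination -h)
    have h4 : 1 - 1 / u = (u - 1) / u := by field_simp
    rw [h4]
    field_simp
    ring
  · intro u hu
    have hd := ((hasDerivAt_lg hu).sub (hasDerivAt_lm hu)).sub_const (Real.pi * I)
    refine hd.congr_deriv ?_
    ring
  · intro h
    exact two_mem
  · have h1 : lg 3 2 = l2 := by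
      simp only [lg, l2]
      rw [if_neg (by decide), ofReal_log (by norm_num)]
      norm_num
    have h2 : lm 3 2 = -(Real.pi * I) := by
      simp only [lm, if_true]
      norm_num
    rw [h1, h2]
    have h3 : Lf (1 / 2) = l2 := by
      unfold Lf
      have h4 : (1 : ℂ) - 1 / 2 = 2⁻¹ := by norm_num
      rw [h4, log_inv _ (by rw [show (2:ℂ) = ((2:ℝ):ℂ) by norm_num, arg_ofReal_of_nonneg (by norm_num)]; exact Real.pi_pos.ne), neg_neg]
      simp only [l2]
      rw [ofReal_log (by norm_num)]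
      norm_num
    rw [h3]
    ring

theorem hasDerivAt_LiC {i : Fin 4} {u : ℂ} (hu : u ∈ OmI i) :
    HasDerivAt (LiC i) (-lm i u / u) u := by
  have h0 := ne_zero_of_mem hu
  by_cases h : i = 3
  · subst h
    have hf : LiC 3 = fun u => 2 * Li (-1) - (Real.pi * I - lg 3 u) ^ 2 / 2 - Li (1 / u) := by
      funext u; simp [LiC]
    rw [hf]
    have h0' : 1 / u ≠ 0 := one_div_ne_zero h0
    have hd := (((((hasDerivAt_lg hu).const_sub (Real.pi * I)).pow 2).div_const 2).const_sub
      (2 * Li (-1))).sub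
      ((H405.hasDerivAt_Li' (div_up_mem_Om hu) h0').comp u (hasDerivAt_inv' h0))
    refine hd.congr_deriv ?_
    rw [Lf_inv3 hu]
    field_simp
    simp
    ring
  · have hf : LiC i = Li := by funext u; simp [LiC, h]
    rw [hf]
    refine (H405.hasDerivAt_Li' (mem_Om_of h hu) h0).congr_deriv ?_
    unfold Lf lm
    rw [if_neg h]

theorem hasDerivAt_f6C {i : Fin 4} {u : ℂ} (hu : u ∈ OmI i) :
    HasDerivAt (f6C i) (l2 / 2 / (1 - u) + (l2 - lm i u) / (1 + u)) u := by
  have h0 := ne_zero_of_mem hu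
  have h1 := ne_one_of_mem hu
  have h2 := ne_neg_one_of_mem hu
  by_cases h : i = 3
  · subst h
    have hf : f6C 3 = fun u => -Li (-1) - lm 3 u * (lm 3 u - l2) / 2 + (lp 3 u - lm 3 u) ^ 2 / 2
        + Li ((u - 1) / (u + 1)) := by
      funext u; simp [f6C]
    rw [hf]
    have h2' : u + 1 ≠ 0 := by rwa [add_comm]
    have h3 : u - 1 ≠ 0 := by
      intro h; exact h1 (by linear_combination -h)
    have htt : (u - 1) / (u + 1) ≠ 0 := div_ne_zero h3 h2'
    have hq : HasDerivAt (fun u : ℂ => (u - 1) / (u + 1)) (2 / (u + 1) ^ 2) u := by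
      refine (((hasDerivAt_id u).sub_const 1).div ((hasDerivAt_id u).add_const 1) h2').congr_deriv ?_
      simp only [id_eq]
      congr 1
      ring
    have hlm := hasDerivAt_lm hu
    have hlp := hasDerivAt_lp hu
    have hd := ((((hlm.mul (hlm.sub_const l2)).div_const 2).const_sub (-Li (-1))).add
      (((hlp.sub hlm).pow 2).div_const 2)).add
      ((H405.hasDerivAt_Li' (tt_mem_Om hu) htt).comp u hq)
    refine hd.congr_deriv ?_
    have hs : 1 + u ∈ slitPlane := by simpa using lp_slit hu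
    rw [Lf_tt hs]
    have h4 : lp 3 u = log (1 + u) := by simp [lp]
    rw [← h4]
    simp only [Nat.add_one_sub_one, pow_one, Nat.cast_ofNat, Pi.sub_apply]
    field_simp
    ring
  · have hf : f6C i = f6 := by funext u; simp [f6C, h]
    rw [hf]
    have hm : u ≠ -1 := by
      rintro rfl; exact h2 (by ring)
    refine (H405.hasDerivAt_f6' (mem_Om_of h hu) hm).congr_deriv ?_
    unfold Lf lm
    rw [if_neg h]
    ring

/-! ### reflections -/

theorem conj_mem_Om {u : ℂ} (hu : u ∈ Om) : conj u ∈ Om := by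
  rw [H405.mem_Om_iff] at hu ⊢
  simpa using hu

theorem Lf_conj {u : ℂ} (hu : u ∈ Om) : Lf (conj u) = conj (Lf u) := by
  have h1 : (1 - u) ∈ slitPlane := hu
  have h2 := log_conj (1 - u) (mem_slitPlane_iff_arg.1 h1).1
  rw [map_sub, map_one] at h2
  unfold Lf
  rw [h2, map_neg]

theorem dslope_zero_conj {u : ℂ} (hu : u ∈ Om) :
    dslope Lf 0 (conj u) = conj (dslope Lf 0 u) := by
  by_cases h : u = 0
  · subst h
    rw [map_zero, H405.dslope_Lf_zero_zero, map_one]
  · have h' : conj u ≠ 0 := by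
      intro h1; exact h (by simpa using h1)
    rw [H405.dslope_Lf_zero h, H405.dslope_Lf_zero h', Lf_conj hu, map_div₀]

theorem dslope_neg_one_conj {u : ℂ} (hu : u ∈ Om) :
    dslope Lf (-1) (conj u) = conj (dslope Lf (-1) u) := by
  by_cases h : u = -1
  · subst h
    rw [map_neg, map_one, H405.dslope_Lf_neg_one_neg_one, map_div₀, map_one, conj_two]
  · have h' : conj u ≠ -1 := by
      intro h1
      apply h
      have := congrArg conj h1
      simpa using this
    rw [H405.dslope_Lf_neg_one h, H405.dslope_Lf_neg_one h', Lf_conj hu, map_div₀, map_add,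
      map_add, map_one, conj_l2]

theorem Li_conj {u : ℂ} (hu : u ∈ Om) : conj (Li (conj u)) = Li u := by
  have h := H405.eq_of_deriv_eq H405.star_Om (f := conj ∘ Li ∘ conj) (g := Li)
    (d := dslope Lf 0) (fun u hu => by
      rw [hasDerivAt_conj_conj_iff, ← dslope_zero_conj hu]
      exact H405.hasDerivAt_Li (conj_mem_Om hu)) (fun u hu => H405.hasDerivAt_Li hu) hu
  simpa [H405.Li_zero] using h

theorem Jf_conj {u : ℂ} (hu : u ∈ Om) : conj (Jf (conj u)) = Jf u := by
  have h := H405.eq_of_deriv_eq H405.star_Om (f := conj ∘ Jf ∘ conj) (g := Jf)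
    (d := dslope Lf (-1)) (fun u hu => by
      rw [hasDerivAt_conj_conj_iff, ← dslope_neg_one_conj hu]
      exact H405.hasDerivAt_Jf (conj_mem_Om hu)) (fun u hu => H405.hasDerivAt_Jf hu) hu
  simpa [H405.Jf_zero] using h

theorem f6_conj {u : ℂ} (hu : u ∈ Om) : conj (f6 (conj u)) = f6 u := by
  unfold f6
  rw [map_add, map_mul, map_div₀, conj_l2, conj_two, Lf_conj hu, conj_conj, Jf_conj hu]

theorem f7_conj {u : ℂ} (hu : u ∈ Om) : conj (f7 (conj u)) = f7 u := by
  unfold f7
  rw [map_div₀, map_mul, map_add, conj_l2, conj_two, Lf_conj hu, conj_conj]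

theorem Li_neg_one_real : conj (Li (-1)) = Li (-1) := by
  have := Li_conj H405.neg_one_mem_Om
  rwa [map_neg, map_one] at this

theorem LiC_star {i : Fin 4} {u : ℂ} (hu : u ∈ OmI i) :
    LiC i u = conj (LiC i (conj u)) + (if i = 3 then 2 * Real.pi * I * lg 3 u else 0) := by
  by_cases h : i = 3
  · subst h
    have h1 : conj (lg 3 (conj u)) = lg 3 u := by
      have := lg_star hu
      have h0 : Jg 3 = 0 := by simp [Jg]
      rw [h0, add_zero] at this
      exact this.symm
    have h2 : conj (Li (1 / conj u)) = Li (1 / u) := by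
      have := Li_conj (div_up_mem_Om hu)
      rwa [map_div₀, map_one] at this
    simp only [LiC, if_true]
    rw [map_sub, map_sub, map_div₀, map_pow, map_sub, map_mul, map_mul, conj_ofReal, conj_I, h1, h2,
      conj_two, Li_neg_one_real]
    ring
  · have h1 := Li_conj (mem_Om_of h hu)
    simp only [LiC, if_neg h]
    rw [h1, add_zero]

theorem f6C_star {i : Fin 4} {u : ℂ} (hu : u ∈ OmI i) :
    f6C i u = conj (f6C i (conj u))
      + (if i = 3 then 2 * Real.pi * I * (lp 3 u - l2 / 2) else 0) := by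
  by_cases h : i = 3
  · subst h
    have h1 : conj (lp 3 (conj u)) = lp 3 u := by
      have := lp_star hu
      have h0 : Jp 3 = 0 := by simp [Jp]
      rw [h0, add_zero] at this
      exact this.symm
    have h2 : conj (Li ((conj u - 1) / (conj u + 1))) = Li ((u - 1) / (u + 1)) := by
      have := Li_conj (tt_mem_Om hu)
      rwa [map_div₀, map_sub, map_add, map_one] at this
    have h3 : conj (lm 3 (conj u)) = lm 3 u + 2 * Real.pi * I := by
      have := lm_star hu
      have h0 : Jm 3 = -(2 * Real.pi * I) := by simp [Jm]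
      rw [h0] at this
      rw [this]
      ring
    simp only [f6C, if_true]
    rw [map_add, map_add, map_sub, map_div₀, map_mul, map_sub, map_div₀, map_pow, map_sub, map_neg,
      h1, h2, h3, conj_two, conj_l2, Li_neg_one_real]
    ring
  · have h1 := f6_conj (mem_Om_of h hu)
    simp only [f6C, if_neg h]
    rw [h1, add_zero]

/-! ### the main row -/

/-- the part `1, l, L, Li2, f6, f7` of the main row, continued across the interval `i` -/
def fle (i : Fin 4) (u : ℂ) : Fin 8 → ℂ :=
  ![1, l2, -lm i u, LiC i u, f6C i u, lm i u * (lm i u - l2) / 2, 0, 0]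

theorem fle_up (i : Fin 4) {u : ℂ} (hu : u ∈ Hp) :
    fle i u = ![1, l2, Lf u, Li u, f6 u, f7 u, 0, 0] := by
  unfold fle
  rw [LiC_up i hu, f6C_up i hu, f7_up i hu, lm_up i hu]
  rfl

/-- the reflections of the main row: only the interval `(1, ∞)` has a jump, `2 pi I` times `flY` -/
theorem fle_star {i : Fin 4} {u : ℂ} (hu : u ∈ OmI i) :
    fle i u = cj (fle i (conj u)) + (if i = 3 then 2 * Real.pi * I else 0 : ℂ) • flY i u := by
  have h1 := lm_star hu
  have h2 := LiC_star hu
  have h3 := f6C_star hu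
  by_cases h : i = 3
  · subst h
    have h0 : Jm 3 = -(2 * Real.pi * I) := by simp [Jm]
    rw [h0] at h1
    have h1' : conj (lm 3 (conj u)) = lm 3 u + 2 * Real.pi * I := by
      rw [h1]; ring
    simp only [if_true] at h2 h3
    funext j
    fin_cases j <;> simp [fle, cj, flY, conj_l2, conj_two]
    · rw [h1']; ring
    · exact h2
    · exact h3
    · rw [h1']; ring
  · have h0 : Jm i = 0 := by simp [Jm, h]
    rw [h0, add_zero] at h1
    simp only [if_neg h, add_zero] at h2 h3
    funext j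
    fin_cases j <;> simp [fle, cj, conj_l2, conj_two, h]
    · exact h1
    · exact h2
    · exact h3
    · rw [← h1]

end Vale.Agent.P030.H225
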