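import Vale.Agent.P030.AR.Vec
import Vale.Agent.P030.H462.EvSer
import Vale.Agent.P030.H225.Refl

/-!
# P030: the reflections of the eight global vectors (`RefV` of `AR/Vec`)

Each of the four real intervals lies in the disc of `c0` or of `c2`; there the vectors are
polynomials in the logarithm whose coefficients are real power series.
-/

open PowerSeries Set Complex Metric
open scoped ComplexConjugate

noncomputable section

namespace Vale.Agent.P030.H225

open Vale.Agent.P030.T Vale.Agent.P030.H462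
open Vale.Agent.P030.AR hiding OmI Iv

/-! ### real power series -/

theorem evq_conj (f : ℚ⟦X⟧) (t : ℂ) : conj (evq f (conj t)) = evq f t := by
  unfold evq ev
  rw [Complex.conj_tsum]
  refine tsum_congr fun n => ?_
  rw [map_mul, map_pow, conj_conj]
  congr 1
  simp

theorem conj_xc : conj xc = xc := conj_ofReal _
theorem conj_pc : conj pc = pc := conj_ofReal _
theorem conj_l2' : conj AR.l2 = AR.l2 := conj_ofReal _

theorem tupC_conj (g : Gp) (t : ℂ) (j : Fin 8) : conj (tupC g (conj t) j) = tupC g t j := by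
  unfold tupC
  rw [map_add, map_mul, evq_conj, evq_conj, conj_xc]

theorem evt_conj (f : Fin 8 → ℚ⟦X⟧) (t : ℂ) (j : Fin 8) : conj (evt f (conj t) j) = evt f t j :=
  evq_conj _ _

/-! ### holomorphy of the coefficients -/

theorem diff_evq {f : ℚ⟦X⟧} (hf : PQ f) : DifferentiableOn ℂ (evq f) (ball (0 : ℂ) 1) :=
  differentiableOn_ev hf

theorem pq_li2m : PQ li2m := pq_of_le_one fun n => by
  rw [li2m, coeff_mk]
  split_ifs with h
  · simp
  · have h1 : (1 : ℚ) ≤ (n : ℚ) := by exact_mod_cast Nat.one_le_iff_ne_zero.2 h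
    rw [abs_div, abs_pow, abs_neg, abs_one, one_pow, div_le_one (by positivity)]
    rw [abs_of_nonneg (by positivity)]
    nlinarith

theorem pqX : PQ (1 - X : ℚ⟦X⟧) := PG.one.sub PG.varX

theorem pq_z1 (j : Fin 8) : PQ (tup0 .z1 j) := by
  fin_cases j
  · exact PG.one
  · exact PG.zero
  · exact pq_lgm
  · exact pq_li2
  · exact pq_integ (pq_geoa.mul pq_lgm)
  · exact pq_sc (pq_lgm.pow 2) _
  · exact pqX.mul pq_serB
  · exact pqX.mul (pq_th pq_serB)

theorem pq_z1' (j : Fin 8) : PQ (tup1 .z1 j) := by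
  fin_cases j
  · exact PG.zero
  · exact PG.zero
  · exact PG.zero
  · exact PG.zero
  · exact PG.zero
  · exact PG.zero
  · exact (pqX.mul pq_serK).neg
  · exact (pqX.mul (pq_th pq_serK)).neg

theorem pq_zl (j : Fin 8) : PQ (tup0 .zl j) := by
  fin_cases j
  · exact PG.zero
  · exact PG.one
  · exact PG.zero
  · exact PG.zero
  · exact (pq_sc pq_lgm _).add pq_lgp
  · exact pq_sc pq_lgm _
  · exact PG.zero
  · exact PG.zero

theorem pq_z8 (j : Fin 8) : PQ (tup0 .z8 j) := by
  fin_cases j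
  · exact PG.zero
  · exact PG.zero
  · exact PG.zero
  · exact PG.zero
  · exact PG.zero
  · exact PG.zero
  · exact pqX.mul pq_serK
  · exact pqX.mul (pq_th pq_serK)

theorem pq_v2 (j : Fin 8) : PQ (tup0 .v2 j) := by
  fin_cases j
  · exact PG.zero
  · exact PG.zero
  · exact PG.zero
  · exact PG.one.neg
  · exact PG.one.neg
  · exact PG.one
  · exact PG.zero
  · exact PG.zero

theorem pq_v8 (j : Fin 8) : PQ (tup0 .v8 j) := by
  fin_cases j
  · exact PG.zero
  · exact PG.zero
  · exact PG.zero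
  · exact PG.zero
  · exact PG.zero
  · exact PG.zero
  · exact (pqX.mul pq_serK).neg
  · exact pqX.mul (pq_dd (PG.varX.mul pq_serK))

theorem pq_vb (j : Fin 8) : PQ (tup0 .vb j) := by
  fin_cases j
  · exact PG.zero
  · exact PG.zero
  · exact PG.one
  · exact PG.zero
  · exact pq_lgp
  · exact pq_lgm
  · exact PG.zero
  · exact PG.zero

theorem pq_zL0 (j : Fin 8) : PQ (zL0 j) := by
  fin_cases j
  · exact PG.zero
  · exact PG.zero
  · exact PG.one
  · exact PG.zero
  · exact pq_lgp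
  · exact pq_lgm
  · exact PG.zero
  · exact PG.zero

theorem pq_zM0 (j : Fin 8) : PQ (zM0 j) := by
  fin_cases j
  · exact PG.zero
  · exact PG.zero
  · exact PG.zero
  · exact PG.zero
  · exact PG.zero
  · exact PG.zero
  · exact pqX.mul pq_serM
  · exact pqX.mul ((pq_th pq_serM).add pq_serK)

theorem pq_vE0 (j : Fin 8) : PQ (vE0 j) := by
  fin_cases j
  · exact PG.zero
  · exact PG.one
  · exact PG.zero
  · exact PG.zero
  · exact (pq_sc pq_lgm _).add pq_lgp
  · exact pq_sc pq_lgm _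
  · exact PG.zero
  · exact PG.zero

theorem pq_vM0 (j : Fin 8) : PQ (vM0 j) := by
  fin_cases j
  · exact PG.zero
  · exact PG.zero
  · exact PG.zero
  · exact PG.zero
  · exact PG.zero
  · exact PG.zero
  · exact (pqX.mul pq_serM).neg
  · exact pqX.mul ((pq_dd (PG.varX.mul pq_serM)).add pq_serK)

theorem pq_vO0 (j : Fin 8) : PQ (vO0 j) := by
  fin_cases j
  · exact PG.one
  · exact PG.zero
  · exact pq_lgm
  · exact pq_li2.neg
  · exact (pq_li2m.sub pq_li2).add (pq_integ (pq_geoa.mul pq_lgm))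
  · exact pq_sc (pq_lgm.pow 2) _
  · exact (pqX.mul pq_serB).neg
  · exact pqX.mul (pq_dd (PG.varX.mul pq_serB))

theorem pq_zero' (g : Gp) (hg : g ≠ .z1) (j : Fin 8) : PQ (tup1 g j) := by
  cases g <;> first | exact absurd rfl hg | exact PG.zero

theorem diff_tupC {g : Gp} (h0 : ∀ j, PQ (tup0 g j)) (h1 : ∀ j, PQ (tup1 g j)) (j : Fin 8) :
    DifferentiableOn ℂ (fun t => tupC g t j) (ball (0 : ℂ) 1) :=
  (diff_evq (h0 j)).add ((diff_evq (h1 j)).const_mul xc)

theorem diff_evt {f : Fin 8 → ℚ⟦X⟧} (h0 : ∀ j, PQ (f j)) (j : Fin 8) :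
    DifferentiableOn ℂ (fun t => evt f t j) (ball (0 : ℂ) 1) := diff_evq (h0 j)

theorem d_z1 (j : Fin 8) : DifferentiableOn ℂ (fun t => tupC .z1 t j) (ball (0 : ℂ) 1) :=
  diff_tupC pq_z1 pq_z1' j
theorem d_zl (j : Fin 8) : DifferentiableOn ℂ (fun t => tupC .zl t j) (ball (0 : ℂ) 1) :=
  diff_tupC pq_zl (pq_zero' _ (by decide)) j
theorem d_z8 (j : Fin 8) : DifferentiableOn ℂ (fun t => tupC .z8 t j) (ball (0 : ℂ) 1) :=
  diff_tupC pq_z8 (pq_zero' _ (by decide)) j
theorem d_v2 (j : Fin 8) : DifferentiableOn ℂ (fun t => tupC .v2 t j) (ball (0 : ℂ) 1) :=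
  diff_tupC pq_v2 (pq_zero' _ (by decide)) j
theorem d_v8 (j : Fin 8) : DifferentiableOn ℂ (fun t => tupC .v8 t j) (ball (0 : ℂ) 1) :=
  diff_tupC pq_v8 (pq_zero' _ (by decide)) j
theorem d_vb (j : Fin 8) : DifferentiableOn ℂ (fun t => tupC .vb t j) (ball (0 : ℂ) 1) :=
  diff_tupC pq_vb (pq_zero' _ (by decide)) j

/-! ### the two germ families as functions of the logarithm -/

theorem diff_gl0 {S : Set ℂ} {T τ : ℂ → ℂ} (hT : DifferentiableOn ℂ T S)
    (hτ : DifferentiableOn ℂ τ S) (hm : MapsTo τ S (ball (0 : ℂ) 1)) (i j : Fin 8) :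
    DifferentiableOn ℂ (fun u => gl0 (T u) (τ u) i j) S := by
  have h1 := (d_z1 j).comp hτ hm
  have h2 := (d_zl j).comp hτ hm
  have h3 := (d_z8 j).comp hτ hm
  have h4 := (diff_evt pq_zL0 j).comp hτ hm
  have h5 := (diff_evt pq_zM0 j).comp hτ hm
  fin_cases i
  · exact h1.add (h2.const_mul AR.l2)
  · exact h2
  · exact h4.add (hT.mul_const (dv j))
  · exact differentiableOn_const _
  · exact differentiableOn_const _
  · exact differentiableOn_const _
  · exact h3.const_mul (pc / 2)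
  · exact ((hT.const_sub (2 * AR.l2)).mul h3).sub h5

/-- the germs at `c2` with a parameter `J` in the place of `I` -/
def gl2p (J T t : ℂ) (i j : Fin 8) : ℂ :=
  (![(evt vO0 t j + T * tupC .vb t j + (T ^ 2 / 2) * tupC .v2 t j)
      + AR.l2 * (evt vE0 t j + (T / 2) * (hv j - gv j))
      - (pc ^ 2 / 6) * dv j - (pc ^ 2 / 4) * gv j
      - (pc / 8) * ((evt vM0 t j + T * tupC .v8 t j) - (2 * AR.l2) * tupC .v8 t j)
      - xc * tupC .v8 t j,
    (evt vE0 t j + (T / 2) * (hv j - gv j)) + (J * pc) * gv j,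
    tupC .vb t j + T * tupC .v2 t j + (J * pc) * (dv j + gv j),
    dv j, gv j, hv j,
    (pc / 2) * tupC .v8 t j + J * ((2 * J) * ((pc / 2) * tupC .v8 t j)
      - ((evt vM0 t j + T * tupC .v8 t j) - (2 * AR.l2) * tupC .v8 t j)),
    (2 * J) * ((pc / 2) * tupC .v8 t j)
      - ((evt vM0 t j + T * tupC .v8 t j) - (2 * AR.l2) * tupC .v8 t j)] : Fin 8 → ℂ) i

theorem gl2_eq (T t : ℂ) (i j : Fin 8) : gl2 T t i j = gl2p I T t i j := by
  fin_cases i <;> rfl

theorem conj_dv (j : Fin 8) : conj (dv j) = dv j := by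
  unfold dv
  rw [Pi.single_apply]
  split_ifs <;> simp
theorem conj_gv (j : Fin 8) : conj (gv j) = gv j := by
  unfold gv
  rw [Pi.single_apply]
  split_ifs <;> simp
theorem conj_hv (j : Fin 8) : conj (hv j) = hv j := by
  unfold hv
  rw [Pi.single_apply]
  split_ifs <;> simp

theorem conj_3 : conj (3 : ℂ) = 3 := map_ofNat _ 3
theorem conj_4 : conj (4 : ℂ) = 4 := map_ofNat _ 4
theorem conj_6 : conj (6 : ℂ) = 6 := map_ofNat _ 6
theorem conj_8 : conj (8 : ℂ) = 8 := map_ofNat _ 8

theorem gl2p_conj (J T t : ℂ) (i j : Fin 8) :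
    conj (gl2p J T (conj t) i j) = gl2p (conj J) (conj T) t i j := by
  fin_cases i <;> simp [gl2p, tupC_conj, evt_conj, conj_dv, conj_gv, conj_hv, conj_pc, conj_xc,
    conj_l2', conj_two, conj_4, conj_6, conj_8]

theorem gl0_conj (T t : ℂ) (i j : Fin 8) :
    conj (gl0 T (conj t) i j) = gl0 (conj T) t i j := by
  fin_cases i <;> simp [gl0, tupC_conj, evt_conj, conj_dv, conj_gv, conj_hv, conj_pc,
    conj_l2', conj_two]

/-! ### the algebra of the reflections -/

theorem tupC_v2 (t : ℂ) (j : Fin 8) : tupC .v2 t j = hv j - dv j - gv j := by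
  unfold tupC evq hv dv gv
  have h1 : ∀ t : ℂ, ev (Rat.castHom ℂ) (1 : ℚ⟦X⟧) t = 1 := fun t => ev_one t
  have h0 : ∀ t : ℂ, ev (Rat.castHom ℂ) (0 : ℚ⟦X⟧) t = 0 := fun t => ev_zero t
  have hm : ∀ t : ℂ, ev (Rat.castHom ℂ) (-1 : ℚ⟦X⟧) t = -1 := fun t => by rw [ev_neg, h1]
  fin_cases j <;> simp [tup0, tup1, h0, h1, hm]

/-- conjugation in the disc of `c0` -/
theorem ref_gl0 (T t : ℂ) (i j : Fin 8) :
    ∑ k, conj (Rf 1 i k) * gl0 T t k j = gl0 (T + 2 * pc * I) t i j := by
  rw [Fin.sum_univ_eight]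
  fin_cases i <;> simp [Rf, gl0, conj_pc, conj_two, conj_4]
  all_goals ring

theorem ref_gl0' (T t : ℂ) (i j : Fin 8) :
    ∑ k, conj (Rf 2 i k) * gl0 T t k j = gl0 T t i j := by
  have h : Rf 2 = 1 := rfl
  rw [h, Finset.sum_eq_single i]
  · simp
  · intro k _ hk
    simp [hk.symm]
  · simp

theorem ref_gl2 (T t : ℂ) (i j : Fin 8) :
    ∑ k, conj (Rf 0 i k) * gl2p (-I) T t k j = gl2p I T t i j := by
  rw [Fin.sum_univ_eight]
  have i3 : I ^ 3 = -I := by rw [pow_succ, I_sq]; ring
  fin_cases i <;> simp [Rf, gl2p, conj_pc, conj_two, conj_3, conj_4]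
  all_goals ring_nf
  all_goals try simp only [i3, I_sq]
  all_goals try ring

theorem ref_gl2' (T t : ℂ) (i j : Fin 8) :
    ∑ k, conj (Rf 3 i k) * gl2p (-I) (T - 2 * pc * I) t k j = gl2p I T t i j := by
  rw [Fin.sum_univ_eight]
  have i3 : I ^ 3 = -I := by rw [pow_succ, I_sq]; ring
  fin_cases i <;> simp [Rf, gl2p, conj_pc, conj_two, conj_l2', tupC_v2]
  all_goals ring_nf
  all_goals try simp only [i3, I_sq]
  all_goals try ring

/-! ### gluing -/

theorem isOpen_Up : IsOpen Up := isOpen_lt continuous_const Complex.continuous_im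

/-- the values on the lower half plane -/
def lowV (V : Fin 8 → ℂ → Fin 8 → ℂ) (q : Fin 4) (i : Fin 8) (u : ℂ) (j : Fin 8) : ℂ :=
  ∑ k, conj (Rf q i k) * conj (V k (conj u) j)

theorem diff_lowV {V : Fin 8 → ℂ → Fin 8 → ℂ}
    (hV : ∀ i j, DifferentiableOn ℂ (fun u => V i u j) Up) (q : Fin 4) (i j : Fin 8) {u : ℂ}
    (hu : u.im < 0) : DifferentiableAt ℂ (fun u => lowV V q i u j) u := by
  unfold lowV
  refine DifferentiableAt.fun_sum fun k _ => ?_
  refine DifferentiableAt.const_mul ?_ _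
  have h1 : DifferentiableAt ℂ (fun u => V k u j) (conj u) := by
    refine (hV k j).differentiableAt (isOpen_Up.mem_nhds ?_)
    show 0 < (conj u).im
    simpa using hu
  have h2 := h1.conj_conj
  rw [conj_conj] at h2
  exact h2

theorem glue_real {V : Fin 8 → ℂ → Fin 8 → ℂ}
    (hV : ∀ i j, DifferentiableOn ℂ (fun u => V i u j) Up) (q : Fin 4) {D : Set ℂ}
    (hD : IsOpen D) (hI : ∀ x ∈ Iv q, (x : ℂ) ∈ D) (G : Fin 8 → ℂ → Fin 8 → ℂ)
    (hG : ∀ i j, DifferentiableOn ℂ (fun u => G i u j) (D ∩ OmI q))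
    (hup : ∀ u ∈ D, u ∈ Up → ∀ i j, V i u j = G i u j)
    (hlow : ∀ u ∈ D, u.im < 0 → ∀ i j, lowV V q i u j = G i u j) :
    ∃ W, IsW V q W := by
  set W : Fin 8 → ℂ → Fin 8 → ℂ := fun i u j =>
    if 0 < u.im then V i u j else if u.im < 0 then lowV V q i u j else G i u j with hW
  refine ⟨W, ⟨fun i j => ?_, fun i u hu => ?_, fun i u hu j => ?_⟩⟩
  · intro u hu
    refine DifferentiableAt.differentiableWithinAt ?_
    rcases lt_trichotomy u.im 0 with h | h | h
    · refine (diff_lowV hV q i j h).congr_of_eventuallyEq ?_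
      have ho : IsOpen {u : ℂ | u.im < 0} := isOpen_lt Complex.continuous_im continuous_const
      filter_upwards [ho.mem_nhds h] with z hz
      have hz' : z.im < 0 := hz
      simp only [hW]
      rw [if_neg (not_lt.2 hz'.le), if_pos hz']
    · have hr : (u.re : ℂ) = u := by
        apply Complex.ext <;> simp [h]
      have hmem : u ∈ D ∩ OmI q := by
        refine ⟨?_, hu⟩
        rw [← hr]
        exact hI _ (hu h)
      have ho : IsOpen (D ∩ OmI q) := hD.inter (isOpen_OmI q)
      refine ((hG i j).differentiableAt (ho.mem_nhds hmem)).congr_of_eventuallyEq ?_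
      filter_upwards [ho.mem_nhds hmem] with z hz
      simp only [hW]
      split_ifs with h1 h2
      · exact hup z hz.1 h1 i j
      · exact hlow z hz.1 h2 i j
      · rfl
    · refine ((hV i j).differentiableAt (isOpen_Up.mem_nhds h)).congr_of_eventuallyEq ?_
      filter_upwards [isOpen_Up.mem_nhds h] with z hz
      have hz' : 0 < z.im := hz
      simp only [hW]
      rw [if_pos hz']
  · funext j
    have hu' : 0 < u.im := hu
    simp only [hW]
    rw [if_pos hu']
  · simp only [hW]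
    rw [if_neg (not_lt.2 hu.le), if_pos hu]
    rfl

/-! ### the four intervals -/

theorem diff_lg (q : Fin 4) : DifferentiableOn ℂ (lg q) (OmI q) := fun _ hu =>
  (hasDerivAt_lg hu).differentiableAt.differentiableWithinAt

theorem ref_c0 {V : Fin 8 → ℂ → Fin 8 → ℂ} (hV : IsV V) (q : Fin 4)
    (hq : ∀ x ∈ Iv q, (x : ℂ) ∈ ball (0 : ℂ) 1)
    (hr : ∀ T t i j, ∑ k, conj (Rf q i k) * gl0 T t k j = gl0 (T + Jg q) t i j) :
    ∃ W, IsW V q W := by
  refine glue_real hV.hol q (D := ball (0 : ℂ) 1) isOpen_ball hq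
    (fun i u j => gl0 (lg q u) u i j) (fun i j => ?_) (fun u hu hu2 i j => ?_)
    (fun u hu hu2 i j => ?_)
  · exact diff_gl0 ((diff_lg q).mono inter_subset_right) differentiableOn_id
      (fun u hu => hu.1) i j
  · show V i u j = gl0 (lg q u) u i j
    rw [lg_up q hu2, hV.at0 u hu2 (by simpa using hu) i]
  · show lowV V q i u j = gl0 (lg q u) u i j
    have hcu : conj u ∈ Up := by
      show 0 < (conj u).im
      simpa using hu2
    have hn : ‖conj u‖ < 1 := by
      rw [norm_conj]; simpa using hu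
    have hmem : u ∈ OmI q := mem_OmI_of_ne hu2.ne
    unfold lowV
    rw [lg_star hmem, ← hr]
    refine Finset.sum_congr rfl fun k _ => ?_
    rw [hV.at0 _ hcu hn k]
    congr 1
    rw [gl0_conj, lg_up q hcu]

theorem diff_gl2 {S : Set ℂ} {T τ : ℂ → ℂ} (hT : DifferentiableOn ℂ T S)
    (hτ : DifferentiableOn ℂ τ S) (hm : MapsTo τ S (ball (0 : ℂ) 1)) (J : ℂ) (i j : Fin 8) :
    DifferentiableOn ℂ (fun u => gl2p J (T u) (τ u) i j) S := by
  have h1 : DifferentiableOn ℂ (fun u => evt vO0 (τ u) j) S := (diff_evt pq_vO0 j).comp hτ hm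
  have h2 : DifferentiableOn ℂ (fun u => tupC .vb (τ u) j) S := (d_vb j).comp hτ hm
  have h3 : DifferentiableOn ℂ (fun u => tupC .v2 (τ u) j) S := (d_v2 j).comp hτ hm
  have h4 : DifferentiableOn ℂ (fun u => evt vE0 (τ u) j) S := (diff_evt pq_vE0 j).comp hτ hm
  have h5 : DifferentiableOn ℂ (fun u => evt vM0 (τ u) j) S := (diff_evt pq_vM0 j).comp hτ hm
  have h6 : DifferentiableOn ℂ (fun u => tupC .v8 (τ u) j) S := (d_v8 j).comp hτ hm
  have hE : DifferentiableOn ℂ (fun u => evt vE0 (τ u) j + (T u / 2) * (hv j - gv j)) S :=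
    h4.add ((hT.div_const 2).mul_const _)
  have hM : DifferentiableOn ℂ (fun u => (evt vM0 (τ u) j + T u * tupC .v8 (τ u) j)
      - (2 * AR.l2) * tupC .v8 (τ u) j) S :=
    (h5.add (hT.mul h6)).sub (h6.const_mul _)
  have hP : DifferentiableOn ℂ (fun u => (2 * J) * ((pc / 2) * tupC .v8 (τ u) j)
      - ((evt vM0 (τ u) j + T u * tupC .v8 (τ u) j) - (2 * AR.l2) * tupC .v8 (τ u) j)) S :=
    ((h6.const_mul _).const_mul _).sub hM
  fin_cases i
  · exact (((((h1.add (hT.mul h2)).add (((hT.pow 2).div_const 2).mul h3)).add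
      (hE.const_mul AR.l2)).sub_const _).sub_const _ |>.sub (hM.const_mul _)).sub (h6.const_mul _)
  · exact hE.add_const _
  · exact (h2.add (hT.mul h3)).add_const _
  · exact differentiableOn_const _
  · exact differentiableOn_const _
  · exact differentiableOn_const _
  · exact (h6.const_mul _).add (hP.const_mul J)
  · exact hP

theorem log_neg_inv {u : ℂ} (hu : u ∈ Up) : log (-(1 / u)) = pc * I - log u := by
  have h : 0 < u.im := hu
  have h0 : u ≠ 0 := by
    rintro rfl
    simp at h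
  have h1 : (1 / u).im < 0 := by
    rw [one_div, inv_im]
    exact div_neg_of_neg_of_pos (by linarith) (normSq_pos.2 h0)
  rw [log_neg_dn h1, one_div, log_inv]
  · unfold pc; ring
  · intro h2
    rw [arg_eq_pi_iff] at h2
    linarith [h2.2]

theorem ref_c2 {V : Fin 8 → ℂ → Fin 8 → ℂ} (hV : IsV V) (q : Fin 4)
    (hq : ∀ x ∈ Iv q, (x : ℂ) ∈ {u : ℂ | 1 < ‖u‖})
    (hr : ∀ T t i j, ∑ k, conj (Rf q i k) * gl2p (-I) (T - 2 * pc * I + Jg q) t k j
      = gl2p I T t i j) :
    ∃ W, IsW V q W := by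
  have hin : ∀ u : ℂ, 1 < ‖u‖ → 1 / u ∈ ball (0 : ℂ) 1 := by
    intro u hu
    rw [mem_ball_zero_iff, norm_div, norm_one, div_lt_one (by linarith)]
    exact hu
  refine glue_real hV.hol q (D := {u : ℂ | 1 < ‖u‖}) (isOpen_lt continuous_const continuous_norm) hq
    (fun i u j => gl2p I (pc * I - lg q u) (1 / u) i j) (fun i j => ?_) (fun u hu hu2 i j => ?_)
    (fun u hu hu2 i j => ?_)
  · refine diff_gl2 (((diff_lg q).mono inter_subset_right).const_sub _) ?_
      (fun u hu => hin u hu.1) I i j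
    intro u hu
    have h0 : u ≠ 0 := ne_zero_of_mem hu.2
    exact ((differentiableAt_const 1).div differentiableAt_id h0).differentiableWithinAt
  · show V i u j = gl2p I (pc * I - lg q u) (1 / u) i j
    rw [lg_up q hu2, hV.at2 u hu2 hu i, gl2_eq, log_neg_inv hu2]
  · show lowV V q i u j = gl2p I (pc * I - lg q u) (1 / u) i j
    have hcu : conj u ∈ Up := by
      show 0 < (conj u).im
      simpa using hu2
    have hn : 1 < ‖conj u‖ := by
      rw [norm_conj]; exact hu
    have hmem : u ∈ OmI q := mem_OmI_of_ne hu2.ne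
    unfold lowV
    rw [← hr]
    refine Finset.sum_congr rfl fun k _ => ?_
    rw [hV.at2 _ hcu hn k]
    congr 1
    have h1 : (1 : ℂ) / conj u = conj (1 / u) := by
      rw [map_div₀, map_one]
    rw [gl2_eq, h1, gl2p_conj, ← h1, log_neg_inv hcu, ← lg_up q hcu]
    have h2 := lg_star hmem
    congr 1
    · exact conj_I
    · rw [map_sub, map_mul, conj_pc, conj_I]
      linear_combination h2

/-- **the reflection row** -/
theorem refV : RefV := by
  intro V hV q
  fin_cases q
  · refine ref_c2 hV 0 (fun x hx => ?_) fun T t i j => ?_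
    · have h : x < -1 := hx
      show 1 < ‖(x : ℂ)‖
      rw [norm_real, Real.norm_eq_abs, abs_of_neg (by linarith)]
      linarith
    · have h : T - 2 * pc * I + Jg 0 = T := by
        simp [Jg, pc]
      rw [h]
      exact ref_gl2 T t i j
  · refine ref_c0 hV 1 (fun x hx => ?_) fun T t i j => ?_
    · have h : -1 < x ∧ x < 0 := hx
      rw [mem_ball_zero_iff, norm_real, Real.norm_eq_abs, abs_lt]
      constructor <;> linarith [h.1, h.2]
    · have h : Jg 1 = 2 * pc * I := by
        simp [Jg, pc]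
      rw [h]
      exact ref_gl0 T t i j
  · refine ref_c0 hV 2 (fun x hx => ?_) fun T t i j => ?_
    · have h : 0 < x ∧ x < 1 := hx
      rw [mem_ball_zero_iff, norm_real, Real.norm_eq_abs, abs_lt]
      constructor <;> linarith [h.1, h.2]
    · have h : Jg 2 = 0 := by
        simp [Jg]
      rw [h, add_zero]
      exact ref_gl0' T t i j
  · refine ref_c2 hV 3 (fun x hx => ?_) fun T t i j => ?_
    · have h : 1 < x := hx
      show 1 < ‖(x : ℂ)‖
      rw [norm_real, Real.norm_eq_abs, abs_of_pos (by linarith)]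
      exact h
    · have h : Jg 3 = 0 := by
        simp [Jg]
      rw [h, add_zero]
      exact ref_gl2' T t i j

end Vale.Agent.P030.H225
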